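import Mathlib
import Vale.Agent.Lib.P309.Main

open MeasureTheory ProbabilityTheory
open scoped ENNReal
open Vale.Agent.Lib.P309

/-- Sample lower bound for memory-bounded learners in noiseless Gaussian regression:
every learner with `2 ^ M` states that succeeds at accuracy `ε` with probability at least `2 / 3`
within `T` samples has `T ≥ (d / 16) * (log₂ (log₂ (1 / ε) / (log₂ (2 d) + 128 (M + 1) / d ^ 2)) - 1)`. -/
theorem Vale.Agent.Results.P309.A_main.result :
    ∀ (d M T : ℕ), 64 ≤ d → ∀ (Ω : Type) [MeasurableSpace Ω] (μ : Measure Ω) [IsProbabilityMeasure μ]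
      (L : Learner d M Ω) (ε : ℝ), 0 < ε → ε < 1 → (2 / 3 : ℝ≥0∞) ≤ L.successProb T μ ε →
      ((d : ℝ) / 16) * (Real.logb 2 (Real.logb 2 (1 / ε) /
        (Real.logb 2 (2 * d) + 128 * ((M : ℝ) + 1) / (d : ℝ) ^ 2)) - 1) ≤ T := by
  intro d M T hd Ω _ μ _ L ε hε0 hε1 h
  exact main_bound hd μ L hε0 hε1 h
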