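import Mathlib
import Vale.Agent.Lib.P309.HFinal

open MeasureTheory ProbabilityTheory
open scoped ENNReal
open Vale.Agent.Lib.P309

/-- Memory-sample tradeoff for noiseless Gaussian regression. Every learner with `2 ^ M` states that
reads at most `T` pairs and reaches accuracy `ε` with probability at least `2 / 3` satisfies
`d (log₂ (1 / ε) - 2) ≤ (110 + 600 (M + 1) / d ^ 2) (T + d)` for `d ≥ 1024`. Consequently, for every
`c > 0` there are `c' > 0` and `ε₀ > 0` such that learners with `M ≤ c d ^ 2` and `ε < ε₀` need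
`T ≥ c' d log (1 / ε)`. -/
theorem Vale.Agent.Results.P309.B_tradeoff.result :
    (∀ (d M T : ℕ), 1024 ≤ d → ∀ (Ω : Type) [MeasurableSpace Ω] (μ : Measure Ω) [IsProbabilityMeasure μ]
      (L : Learner d M Ω) (ε : ℝ), 0 < ε → ε < 1 → (2 / 3 : ℝ≥0∞) ≤ L.successProb T μ ε →
      (d : ℝ) * (Real.logb 2 (1 / ε) - 2) ≤
        (110 + 600 * (((M : ℝ) + 1) / (d : ℝ) ^ 2)) * ((T : ℝ) + d)) ∧
    (∀ c : ℝ, 0 < c → ∃ c' : ℝ, 0 < c' ∧ ∃ ε₀ : ℝ, 0 < ε₀ ∧
      ∀ (d M T : ℕ), 1024 ≤ d → (M : ℝ) ≤ c * (d : ℝ) ^ 2 →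
      ∀ (Ω : Type) [MeasurableSpace Ω] (μ : Measure Ω) [IsProbabilityMeasure μ]
      (L : Learner d M Ω) (ε : ℝ), 0 < ε → ε < ε₀ → (2 / 3 : ℝ≥0∞) ≤ L.successProb T μ ε →
      c' * (d : ℝ) * Real.log (1 / ε) ≤ T) := by
  constructor
  · intro d M T hd Ω _ μ _ L ε hε0 hε1 h
    exact main_tradeoff hd μ L hε0 hε1 h
  · intro c hc
    set B : ℝ := 710 + 600 * c with hB
    have hB0 : 0 < B := by positivity
    refine ⟨1 / (2 * B), by positivity, Real.exp (-(2 * (2 + B))), Real.exp_pos _, ?_⟩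
    intro d M T hd hM Ω _ μ _ L ε hε0 hε h
    have hε1 : ε < 1 := by
      refine hε.trans ?_
      rw [Real.exp_lt_one_iff]
      linarith
    have hmain := main_tradeoff hd μ L hε0 hε1 h
    set l := Real.log (1 / ε) with hl
    have hl1 : 2 * (2 + B) < l := by
      have h1 : Real.log ε < -(2 * (2 + B)) := (Real.log_lt_iff_lt_exp hε0).mpr hε
      rw [hl, one_div, Real.log_inv]
      linarith
    have hlog2 : Real.log 2 ≤ 1 := by
      have := Real.log_two_lt_d9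
      linarith
    have hlog2pos : 0 < Real.log 2 := Real.log_pos (by norm_num)
    have hL : l ≤ Real.logb 2 (1 / ε) := by
      rw [Real.logb, le_div_iff₀ hlog2pos, ← hl]
      have hl0 : 0 ≤ l := by linarith
      nlinarith
    have hdR : (1024:ℝ) ≤ d := by exact_mod_cast hd
    have hd0 : (0:ℝ) < d := by linarith
    have hsq : (1:ℝ) ≤ (d:ℝ) ^ 2 := by nlinarith
    have hMq : ((M : ℝ) + 1) / (d : ℝ) ^ 2 ≤ c + 1 := by
      rw [div_le_iff₀ (by positivity)]
      have h1 : (0:ℝ) ≤ c * (d:ℝ) ^ 2 := by positivity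
      nlinarith
    have hT0 : (0:ℝ) ≤ T := by positivity
    have hcoef : 110 + 600 * (((M : ℝ) + 1) / (d : ℝ) ^ 2) ≤ B := by
      rw [hB]
      linarith
    have h2 : (d : ℝ) * (Real.logb 2 (1 / ε) - 2) ≤ B * ((T : ℝ) + d) :=
      hmain.trans (mul_le_mul_of_nonneg_right hcoef (by positivity))
    have h3 : (d : ℝ) * (l - 2) ≤ (d : ℝ) * (Real.logb 2 (1 / ε) - 2) :=
      mul_le_mul_of_nonneg_left (by linarith) hd0.le
    have h4 : (d : ℝ) * (l / 2) ≤ (d : ℝ) * (l - 2 - B) :=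
      mul_le_mul_of_nonneg_left (by linarith) hd0.le
    have h5 : (d : ℝ) * l ≤ 2 * B * T := by nlinarith
    have hB2 : 0 < 2 * B := by positivity
    calc 1 / (2 * B) * (d : ℝ) * l = (d * l) / (2 * B) := by ring
      _ ≤ (2 * B * T) / (2 * B) := by gcongr
      _ = T := by field_simp
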